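import Mathlib
import Crest.Agent.Helper96.S0151.Defs

/-!
# S0151 — leaf C3 (CovAlg): algebra of covariant shifts (helper23)

`isCov_one`, `IsCov.mul`, `IsCov.add`, `IsCov.smul`, `IsCov.congr`, `IsCov.norm_le`, with the
names and signatures of `Crest/Agent/Helper96/S0151/Blueprint.lean`.

The two facts of leaves C1/C2 that are needed here (`orbitPoint` is a flow, the index shift
preserves `pairMeasure`) are proved privately below so that this file only depends on `Defs`.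
-/

set_option autoImplicit false

open MeasureTheory Crest.AnalysisR.ProductShift
open scoped ENNReal ComplexConjugate

namespace Crest.Agent.Helper23.S0151

open Crest.Agent.Helper96.S0151

/-- the rotation is a flow (private copy of leaf C1's `orbitPoint_orbitPoint`) -/
private theorem orbitPoint_flow (θ : ℕ → ℝ) (a b : ℤ) (x : ℕ → ℝ) :
    orbitPoint θ a (orbitPoint θ b x) = orbitPoint θ (a + b) x := by
  funext i
  simp only [orbitPoint]
  have h : x i + ((a + b : ℤ) : ℝ) * θ i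
      = (Int.fract (x i + (b : ℝ) * θ i) + (a : ℝ) * θ i) + ((⌊x i + (b : ℝ) * θ i⌋ : ℤ) : ℝ) := by
    have := Int.fract_add_floor (x i + (b : ℝ) * θ i)
    push_cast
    linarith
  rw [h, Int.fract_add_intCast]

/-- the index shift preserves `pairMeasure` (private copy of leaf C2) -/
private theorem shiftMap_mp (d : ℤ) : MeasurePreserving (shiftMap d) pairMeasure pairMeasure := by
  have h1 : MeasurePreserving (id : (ℕ → ℝ) → (ℕ → ℝ)) cubeMeasure cubeMeasure :=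
    MeasurePreserving.id _
  have h2 : MeasurePreserving (fun k : ℤ => k - d) (Measure.count : Measure ℤ) Measure.count :=
    measurePreserving_sub_right _ d
  have h := h1.prod h2
  have he : shiftMap d = Prod.map (id : (ℕ → ℝ) → (ℕ → ℝ)) (fun k : ℤ => k - d) := by
    funext p
    rfl
  rw [he]
  exact h

theorem isCov_one (θ : ℕ → ℝ) : IsCov θ (fun _ => 1) 0 (1 : pairSpace →L[ℂ] pairSpace) := by
  intro g
  refine Filter.Eventually.of_forall fun p => ?_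
  simp

theorem IsCov.mul {θ : ℕ → ℝ} {m₁ m₂ : (ℕ → ℝ) → ℂ} {d₁ d₂ : ℤ}
    {W₁ W₂ : pairSpace →L[ℂ] pairSpace} (h₁ : IsCov θ m₁ d₁ W₁) (h₂ : IsCov θ m₂ d₂ W₂) :
    IsCov θ (fun y => m₁ y * m₂ (orbitPoint θ (-d₁) y)) (d₁ + d₂) (W₁ * W₂) := by
  intro g
  have e1 := h₁ (W₂ g)
  have e2 := (shiftMap_mp d₁).quasiMeasurePreserving.ae_eq_comp (h₂ g)
  filter_upwards [e1, e2] with p hp1 hp2
  change (W₁ (W₂ g) : (ℕ → ℝ) × ℤ → ℂ) p = _
  rw [hp1]
  simp only [Function.comp_apply, shiftMap] at hp2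
  rw [hp2, orbitPoint_flow]
  have h3 : -d₁ + p.2 = p.2 - d₁ := by ring
  rw [h3, sub_sub, mul_assoc]

theorem IsCov.add {θ : ℕ → ℝ} {m₁ m₂ : (ℕ → ℝ) → ℂ} {d : ℤ}
    {W₁ W₂ : pairSpace →L[ℂ] pairSpace} (h₁ : IsCov θ m₁ d W₁) (h₂ : IsCov θ m₂ d W₂) :
    IsCov θ (fun y => m₁ y + m₂ y) d (W₁ + W₂) := by
  intro g
  have e0 := Lp.coeFn_add (W₁ g) (W₂ g)
  filter_upwards [h₁ g, h₂ g, e0] with p hp1 hp2 hp0
  change ((W₁ g + W₂ g : pairSpace) : (ℕ → ℝ) × ℤ → ℂ) p = _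
  rw [hp0, Pi.add_apply, hp1, hp2, add_mul]

theorem IsCov.smul {θ : ℕ → ℝ} {m : (ℕ → ℝ) → ℂ} {d : ℤ} {W : pairSpace →L[ℂ] pairSpace}
    (a : ℂ) (h : IsCov θ m d W) : IsCov θ (fun y => a * m y) d (a • W) := by
  intro g
  have e0 := Lp.coeFn_smul a (W g)
  filter_upwards [h g, e0] with p hp hp0
  change ((a • W g : pairSpace) : (ℕ → ℝ) × ℤ → ℂ) p = _
  rw [hp0, Pi.smul_apply, hp, smul_eq_mul, mul_assoc]

/-- only the values of `m` on the range of `orbitPoint` matter -/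
theorem IsCov.congr {θ : ℕ → ℝ} {m m' : (ℕ → ℝ) → ℂ} {d : ℤ} {W : pairSpace →L[ℂ] pairSpace}
    (h : IsCov θ m d W) (hm : ∀ y, m' (orbitPoint θ 0 y) = m (orbitPoint θ 0 y)) :
    IsCov θ m' d W := by
  intro g
  filter_upwards [h g] with p hp
  rw [hp]
  have h0 : orbitPoint θ p.2 p.1 = orbitPoint θ 0 (orbitPoint θ p.2 p.1) := by
    rw [orbitPoint_flow, zero_add]
  rw [h0, hm]

theorem IsCov.norm_le {θ : ℕ → ℝ} {m : (ℕ → ℝ) → ℂ} {d : ℤ} {W : pairSpace →L[ℂ] pairSpace}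
    (h : IsCov θ m d W) (C : ℝ) (hC : ∀ y, ‖m y‖ ≤ C) : ‖W‖ ≤ C := by
  have hC0 : 0 ≤ C := (norm_nonneg _).trans (hC (fun _ => 0))
  refine ContinuousLinearMap.opNorm_le_bound _ hC0 fun g => ?_
  have hs := shiftMap_mp d
  have hg : AEStronglyMeasurable (g : (ℕ → ℝ) × ℤ → ℂ) pairMeasure :=
    (Lp.aestronglyMeasurable g)
  have hb : ∀ᵐ p ∂pairMeasure,
      ‖(W g : (ℕ → ℝ) × ℤ → ℂ) p‖ ≤ C * ‖((g : (ℕ → ℝ) × ℤ → ℂ) ∘ shiftMap d) p‖ := by
    filter_upwards [h g] with p hp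
    rw [hp, norm_mul]
    exact mul_le_mul_of_nonneg_right (hC _) (norm_nonneg _)
  have h1 : eLpNorm (W g : (ℕ → ℝ) × ℤ → ℂ) 2 pairMeasure
      ≤ ENNReal.ofReal C * eLpNorm ((g : (ℕ → ℝ) × ℤ → ℂ) ∘ shiftMap d) 2 pairMeasure :=
    eLpNorm_le_mul_eLpNorm_of_ae_le_mul hb 2
  rw [eLpNorm_comp_measurePreserving hg hs] at h1
  rw [Lp.norm_def, Lp.norm_def]
  have h2 : (eLpNorm (W g : (ℕ → ℝ) × ℤ → ℂ) 2 pairMeasure).toReal
      ≤ (ENNReal.ofReal C * eLpNorm (g : (ℕ → ℝ) × ℤ → ℂ) 2 pairMeasure).toReal :=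
    ENNReal.toReal_mono (ENNReal.mul_ne_top ENNReal.ofReal_ne_top (Lp.eLpNorm_ne_top g)) h1
  rwa [ENNReal.toReal_mul, ENNReal.toReal_ofReal hC0] at h2

end Crest.Agent.Helper23.S0151
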